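import Mathlib

/-!
# P043: splitting of a planar translation set from a relation `(1 - τ_u)(1 - τ_v) T = 0`
-/

namespace Vale.Agent.P043.R2.H888

open Classical in
/-- integer valued indicator -/
noncomputable def ind {V : Type*} (T : Set V) (x : V) : ℤ := if x ∈ T then 1 else 0

theorem ind_nonneg {V : Type*} (T : Set V) (x : V) : 0 ≤ ind T x := by
  unfold ind; split_ifs <;> simp

theorem ind_le_one {V : Type*} (T : Set V) (x : V) : ind T x ≤ 1 := by
  unfold ind; split_ifs <;> simp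

theorem ind_eq_one {V : Type*} {T : Set V} {x : V} : ind T x = 1 ↔ x ∈ T := by
  unfold ind; split_ifs with h <;> simp [h]

theorem ind_eq_zero {V : Type*} {T : Set V} {x : V} : ind T x = 0 ↔ x ∉ T := by
  unfold ind; split_ifs with h <;> simp [h]

section orbit

variable {V : Type*} [AddCommGroup V]

/-- the relation `(1 - τ_u)(1 - τ_v) 1_T = 0` -/
def Rel (T : Set V) (u v : V) : Prop :=
  ∀ x : V, ind T x + ind T (x - u - v) = ind T (x - u) + ind T (x - v)

/-- a function on `ℤ × ℤ` with vanishing mixed difference splits -/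
theorem mixed (f : ℤ → ℤ → ℤ)
    (h : ∀ a b, f (a + 1) (b + 1) + f a b = f a (b + 1) + f (a + 1) b) (a b : ℤ) :
    f a b = f a 0 + f 0 b - f 0 0 := by
  -- first: for fixed b, the difference in a is independent of b
  have h1 : ∀ a b : ℤ, f (a + 1) b - f a b = f (a + 1) 0 - f a 0 := by
    intro a b
    induction b using Int.induction_on with
    | zero => rfl
    | succ i ih =>
      have := h a i
      linarith
    | pred i ih =>
      have := h a (-(i:ℤ) - 1)
      have e : -(i:ℤ) - 1 + 1 = -(i:ℤ) := by ring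
      rw [e] at this
      linarith
  induction a using Int.induction_on with
  | zero => ring
  | succ i ih =>
    have := h1 i b
    linarith
  | pred i ih =>
    have := h1 (-(i:ℤ) - 1) b
    have e : -(i:ℤ) - 1 + 1 = -(i:ℤ) := by ring
    rw [e] at this
    linarith

theorem rel_split {T : Set V} {u v : V} (h : Rel T u v) (x : V) (a b : ℤ) :
    ind T (x + a • u + b • v) = ind T (x + a • u) + ind T (x + b • v) - ind T x := by
  have := mixed (fun a b => ind T (x + a • u + b • v)) (by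
    intro a b
    have := h (x + (a + 1) • u + (b + 1) • v)
    have e1 : x + (a + 1) • u + (b + 1) • v - u - v = x + a • u + b • v := by
      rw [add_smul, add_smul, one_smul, one_smul]; abel
    have e2 : x + (a + 1) • u + (b + 1) • v - u = x + a • u + (b + 1) • v := by
      rw [add_smul, add_smul, one_smul, one_smul]; abel
    have e3 : x + (a + 1) • u + (b + 1) • v - v = x + (a + 1) • u + b • v := by
      rw [add_smul, add_smul, one_smul, one_smul]; abel
    rw [e1, e2, e3] at this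
    exact this) a b
  simpa using this

/-- every point of `T` has its `u`-orbit or its `v`-orbit in `T` -/
theorem orbit_dichotomy {T : Set V} {u v : V} (h : Rel T u v) {x : V} (hx : x ∈ T) :
    (∀ n : ℤ, x + n • u ∈ T) ∨ (∀ n : ℤ, x + n • v ∈ T) := by
  by_contra hcon
  push Not at hcon
  obtain ⟨⟨a, ha⟩, ⟨b, hb⟩⟩ := hcon
  have := rel_split h x a b
  rw [ind_eq_zero.2 ha, ind_eq_zero.2 hb, ind_eq_one.2 hx] at this
  have := ind_nonneg T (x + a • u + b • v)
  omega

theorem orbit_both {T : Set V} {u v : V} (h : Rel T u v) {x : V}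
    (hu : ∀ n : ℤ, x + n • u ∈ T) (hv : ∀ n : ℤ, x + n • v ∈ T) (a b : ℤ) :
    x + a • u + b • v ∈ T := by
  have := rel_split h x a b
  have hx : x ∈ T := by simpa using hu 0
  rw [ind_eq_one.2 (hu a), ind_eq_one.2 (hv b), ind_eq_one.2 hx] at this
  exact ind_eq_one.1 (by omega)

/-- points whose whole `u`-orbit lies in `T` -/
def Part (T : Set V) (u : V) : Set V := {x | ∀ n : ℤ, x + n • u ∈ T}

theorem Part_sub (T : Set V) (u : V) : Part T u ⊆ T := fun x hx => by simpa using hx 0

theorem Part_inv (T : Set V) (u : V) (x : V) : x + u ∈ Part T u ↔ x ∈ Part T u := by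
  constructor
  · intro h n
    have := h (n - 1)
    have e : x + u + (n - 1) • u = x + n • u := by rw [sub_smul, one_smul]; abel
    rwa [e] at this
  · intro h n
    have := h (n + 1)
    have e : x + u + n • u = x + (n + 1) • u := by rw [add_smul, one_smul]; abel
    rwa [e]

theorem Part_period {T : Set V} {w : V} (hw : ∀ x, x + w ∈ T ↔ x ∈ T) (u x : V) :
    x + w ∈ Part T u ↔ x ∈ Part T u := by
  unfold Part
  simp only [Set.mem_ofPred_eq]
  refine forall_congr' fun n => ?_
  have e : x + w + n • u = x + n • u + w := by abel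
  rw [e, hw]

theorem zperiod {T : Set V} {w : V} (hw : ∀ x, x + w ∈ T ↔ x ∈ T) (n : ℤ) (x : V) :
    x + n • w ∈ T ↔ x ∈ T := by
  induction n using Int.induction_on with
  | zero => simp
  | succ i ih =>
    rw [add_smul, one_smul, ← add_assoc, hw, ih]
  | pred i ih =>
    rw [← ih, ← hw (x + (-(i:ℤ) - 1) • w)]
    have e : x + (-(i:ℤ) - 1) • w + w = x + (-(i:ℤ)) • w := by
      rw [sub_smul, one_smul]; abel
    rw [e]

end orbit

/-- finitely many points in every box -/
def LocFin (T : Set (ℝ × ℝ)) : Prop :=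
  ∀ R : ℝ, (T ∩ {p | |p.1| ≤ R ∧ |p.2| ≤ R}).Finite

/-- an irrational horizontal period is impossible -/
theorem no_irr {T : Set (ℝ × ℝ)} (hfin : LocFin T) (h1 : ∀ p, p + ((1:ℝ), (0:ℝ)) ∈ T ↔ p ∈ T)
    {θ : ℝ} (hθ : Irrational θ) {x : ℝ × ℝ} (h : ∀ n : ℤ, x + n • (θ, (0:ℝ)) ∈ T) : False := by
  -- map n ↦ x + (fract (n θ), 0)
  let F : ℤ → ℝ × ℝ := fun n => x + (Int.fract (n * θ), (0:ℝ))
  have hF : ∀ n, F n ∈ T ∩ {p | |p.1| ≤ |x.1| + |x.2| + 1 ∧ |p.2| ≤ |x.1| + |x.2| + 1} := by
    intro n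
    refine ⟨?_, ?_, ?_⟩
    · have e : F n = x + n • (θ, (0:ℝ)) + (-⌊(n:ℝ) * θ⌋) • ((1:ℝ), (0:ℝ)) := by
        ext
        · have := Int.self_sub_floor ((n:ℝ) * θ)
          simp [F]; linarith
        · simp [F]
      rw [e, zperiod h1]
      exact h n
    · have h0 := Int.fract_nonneg ((n:ℝ) * θ)
      have h1' := Int.fract_lt_one ((n:ℝ) * θ)
      have : |(F n).1| ≤ |x.1| + |Int.fract ((n:ℝ) * θ)| := by
        simpa [F] using abs_add_le x.1 (Int.fract ((n:ℝ) * θ))
      rw [abs_of_nonneg h0] at this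
      have := abs_nonneg x.2
      linarith
    · have : (F n).2 = x.2 := by simp [F]
      rw [this]
      have := abs_nonneg x.1
      linarith
  have hinj : Function.Injective F := by
    intro a b hab
    have : Int.fract ((a:ℝ) * θ) = Int.fract ((b:ℝ) * θ) := by
      have := congrArg Prod.fst hab
      simpa [F] using this
    rw [Int.fract_eq_fract] at this
    obtain ⟨z, hz⟩ := this
    by_contra hne
    have hne' : (a - b : ℤ) ≠ 0 := sub_ne_zero.2 hne
    have : Irrational (((a - b : ℤ) : ℝ) * θ) := hθ.intCast_mul hne'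
    apply this
    refine ⟨z, ?_⟩
    push_cast
    linarith
  exact Set.infinite_of_injective_forall_mem hinj hF (hfin _)

/-- pigeonhole: a nonempty locally finite set with periods `(1,0)`, `u`, `w`, where `u` is not
horizontal, gives an integer relation between the periods -/
theorem commensurable {T : Set (ℝ × ℝ)} (hfin : LocFin T) (hne : T.Nonempty)
    (h1 : ∀ p, p + ((1:ℝ), (0:ℝ)) ∈ T ↔ p ∈ T)
    {u w : ℝ × ℝ} (hu0 : 0 < u.2) (hu : ∀ p, p + u ∈ T ↔ p ∈ T) (hw : ∀ p, p + w ∈ T ↔ p ∈ T) :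
    ∃ I J N : ℤ, I ≠ 0 ∧ I • w = J • u + N • ((1:ℝ), (0:ℝ)) := by
  obtain ⟨x, hx⟩ := hne
  -- j(i) = floor (i * w.2 / u.2)
  let j : ℤ → ℤ := fun i => ⌊(i * w.2) / u.2⌋
  let k : ℤ → ℤ := fun i => ⌊i * w.1 - j i * u.1⌋
  let F : ℤ → ℝ × ℝ := fun i => x + i • w + (-(j i)) • u + (-(k i)) • ((1:ℝ), (0:ℝ))
  have hF1 : ∀ i, (F i).1 = x.1 + Int.fract (i * w.1 - j i * u.1) := by
    intro i
    have := Int.self_sub_floor (i * w.1 - j i * u.1)
    simp [F, k]; linarith
  have hF2 : ∀ i, (F i).2 = x.2 + (i * w.2 - j i * u.2) := by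
    intro i
    simp [F]; ring
  have hF : ∀ i, F i ∈ T ∩ {p | |p.1| ≤ |x.1| + |x.2| + 1 + u.2 ∧ |p.2| ≤ |x.1| + |x.2| + 1 + u.2} := by
    intro i
    refine ⟨?_, ?_, ?_⟩
    · show x + i • w + (-(j i)) • u + (-(k i)) • ((1:ℝ), (0:ℝ)) ∈ T
      rw [zperiod h1, zperiod hu, zperiod hw]
      exact hx
    · show |(F i).1| ≤ _
      rw [hF1]
      have h0 := Int.fract_nonneg (i * w.1 - j i * u.1)
      have h1' := Int.fract_lt_one (i * w.1 - j i * u.1)
      have := abs_add_le x.1 (Int.fract (i * w.1 - j i * u.1))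
      rw [abs_of_nonneg h0] at this
      have := abs_nonneg x.2
      linarith
    · show |(F i).2| ≤ _
      rw [hF2]
      have h0 : (j i : ℝ) ≤ (i * w.2) / u.2 := Int.floor_le _
      have h1' : (i * w.2) / u.2 < j i + 1 := Int.lt_floor_add_one _
      rw [le_div_iff₀ hu0] at h0
      rw [div_lt_iff₀ hu0] at h1'
      have hnn : 0 ≤ i * w.2 - j i * u.2 := by linarith
      have := abs_add_le x.2 (i * w.2 - j i * u.2)
      rw [abs_of_nonneg hnn] at this
      have := abs_nonneg x.1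
      nlinarith
  -- not injective
  have hnotinj : ¬ Function.Injective F := by
    intro hinj
    exact Set.infinite_of_injective_forall_mem hinj hF (hfin _)
  rw [Function.Injective] at hnotinj
  push Not at hnotinj
  obtain ⟨a, b, hab, hne⟩ := hnotinj
  refine ⟨a - b, j a - j b, k a - k b, sub_ne_zero.2 hne, ?_⟩
  have : x + a • w + (-(j a)) • u + (-(k a)) • ((1:ℝ), (0:ℝ))
      = x + b • w + (-(j b)) • u + (-(k b)) • ((1:ℝ), (0:ℝ)) := hab
  rw [sub_smul, sub_smul, sub_smul]
  rw [neg_smul, neg_smul, neg_smul, neg_smul] at this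
  have h2 : (a • w - b • w) - ((j a • u - j b • u) + (k a • ((1:ℝ), (0:ℝ)) - k b • ((1:ℝ), (0:ℝ))))
      = (x + a • w + -(j a • u) + -(k a • ((1:ℝ), (0:ℝ))))
        - (x + b • w + -(j b • u) + -(k b • ((1:ℝ), (0:ℝ)))) := by abel
  rw [this, sub_self] at h2
  exact sub_eq_zero.1 h2

/-- the splitting lemma: if `T` has a non-horizontal period `w` in addition to `(1,0)` and the
relation `(1-τ_u)(1-τ_v)T = 0` holds with `u - v` irrational horizontal, then `T` is
`u`-periodic or `v`-periodic -/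
theorem split {T : Set (ℝ × ℝ)} (hfin : LocFin T) (h1 : ∀ p, p + ((1:ℝ), (0:ℝ)) ∈ T ↔ p ∈ T)
    {u v w : ℝ × ℝ} (hu0 : 0 < u.2) (huv : u.2 = v.2) (hirr : Irrational (u.1 - v.1))
    (hw0 : w.2 ≠ 0) (hw : ∀ p, p + w ∈ T ↔ p ∈ T) (hrel : Rel T u v) :
    (∀ p, p + u ∈ T ↔ p ∈ T) ∨ (∀ p, p + v ∈ T ↔ p ∈ T) := by
  have huv' : u - v = (u.1 - v.1, (0:ℝ)) := by
    ext
    · simp
    · simp [huv]
  have hsplit : ∀ x ∈ T, x ∈ Part T u ∨ x ∈ Part T v := fun x hx => orbit_dichotomy hrel hx
  have hdisj : ∀ x, x ∈ Part T u → x ∈ Part T v → False := by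
    intro x hxu hxv
    refine no_irr hfin h1 hirr (x := x) (fun n => ?_)
    have := orbit_both hrel hxu hxv n (-n)
    have e : x + n • u + (-n) • v = x + n • (u - v) := by
      rw [smul_sub, neg_smul]; abel
    rw [e, huv'] at this
    exact this
  -- one of the parts is empty
  have hempty : Part T u = ∅ ∨ Part T v = ∅ := by
    by_contra hcon
    push Not at hcon
    obtain ⟨hneu, hnev⟩ := hcon
    have lfu : LocFin (Part T u) := fun R => (hfin R).subset
      (Set.inter_subset_inter_left _ (Part_sub T u))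
    have lfv : LocFin (Part T v) := fun R => (hfin R).subset
      (Set.inter_subset_inter_left _ (Part_sub T v))
    have hv0 : 0 < v.2 := huv ▸ hu0
    obtain ⟨I, J, N, hI, hIJ⟩ := commensurable lfu hneu (Part_period h1 u) hu0 (Part_inv T u)
      (Part_period hw u)
    obtain ⟨I', J', N', hI', hIJ'⟩ := commensurable lfv hnev (Part_period h1 v) hv0 (Part_inv T v)
      (Part_period hw v)
    have a1 : (I:ℝ) * w.1 = J * u.1 + N := by
      have := congrArg Prod.fst hIJ
      simpa using this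
    have a2 : (I:ℝ) * w.2 = J * u.2 := by
      have := congrArg Prod.snd hIJ
      simpa using this
    have b1 : (I':ℝ) * w.1 = J' * v.1 + N' := by
      have := congrArg Prod.fst hIJ'
      simpa using this
    have b2 : (I':ℝ) * w.2 = J' * v.2 := by
      have := congrArg Prod.snd hIJ'
      simpa using this
    have hIr : (I:ℝ) ≠ 0 := by exact_mod_cast hI
    have hIr' : (I':ℝ) ≠ 0 := by exact_mod_cast hI'
    have hJ : J ≠ 0 := by
      rintro rfl
      have : (I:ℝ) * w.2 = 0 := by simpa using a2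
      rcases mul_eq_zero.1 this with h | h
      · exact hIr h
      · exact hw0 h
    -- I' J = I J'
    have hP : (I':ℝ) * J = I * J' := by
      have h3 : (I':ℝ) * J * u.2 = I * J' * u.2 := by
        have e1 : (I':ℝ) * J * u.2 = I' * (I * w.2) := by rw [a2]; ring
        have e2 : (I:ℝ) * J' * u.2 = I * (I' * w.2) := by rw [b2, ← huv]; ring
        rw [e1, e2]; ring
      exact mul_right_cancel₀ hu0.ne' h3
    have hθ : (I':ℝ) * J * (u.1 - v.1) = I * N' - I' * N := by
      have e1 : (I':ℝ) * J * u.1 = I' * (I * w.1) - I' * N := by rw [a1]; ring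
      have e2 : (I':ℝ) * J * v.1 = I * (I' * w.1) - I * N' := by rw [hP, b1]; ring
      rw [mul_sub, e1, e2]; ring
    have hne : (I' * J : ℤ) ≠ 0 := mul_ne_zero hI' hJ
    have := hirr.intCast_mul hne
    apply this
    refine ⟨(I * N' - I' * N : ℤ), ?_⟩
    push_cast
    rw [hθ]
  rcases hempty with he | he
  · right
    have hT : Part T v = T := by
      apply Set.Subset.antisymm (Part_sub T v)
      intro x hx
      rcases hsplit x hx with h | h
      · rw [he] at h; exact h.elim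
      · exact h
    intro p
    have := Part_inv T v p
    rwa [hT] at this
  · left
    have hT : Part T u = T := by
      apply Set.Subset.antisymm (Part_sub T u)
      intro x hx
      rcases hsplit x hx with h | h
      · exact h
      · rw [he] at h; exact h.elim
    intro p
    have := Part_inv T u p
    rwa [hT] at this

/-- The four cases.  `u = (sg, g)`, `v = (gt, g)`, `u' = (0, g)`, `v' = (gt - sg', g)` where
`sg = 169/196` (`= s/M`) and `sg' = -194/225` (`= (1-s)/M`). -/
theorem four_cases {T : Set (ℝ × ℝ)} (hfin : LocFin T) (hne : T.Nonempty)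
    (h1 : ∀ p, p + ((1:ℝ), (0:ℝ)) ∈ T ↔ p ∈ T)
    {g t : ℝ} (hg : 0 < g) (hirr : Irrational (g * t)) {w : ℝ × ℝ}
    (hw0 : w.2 ≠ 0) (hw : ∀ p, p + w ∈ T ↔ p ∈ T)
    (ha : Rel T ((169 / 196 : ℝ), g) (g * t, g))
    (hb : Rel T ((0 : ℝ), g) (g * t - (-194 / 225), g)) :
    ((∀ p, p + ((1 / 196 : ℝ), (0 : ℝ)) ∈ T ↔ p ∈ T) ∧ (∀ p, p + ((0 : ℝ), g) ∈ T ↔ p ∈ T)) ∨
    ((∀ p, p + ((1 / 225 : ℝ), (0 : ℝ)) ∈ T ↔ p ∈ T) ∧ (∀ p, p + (g * t, g) ∈ T ↔ p ∈ T)) := by
  have add_per : ∀ {a b : ℝ × ℝ}, (∀ p, p + a ∈ T ↔ p ∈ T) → (∀ p, p + b ∈ T ↔ p ∈ T) →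
      ∀ m n : ℤ, ∀ p, p + (m • a + n • b) ∈ T ↔ p ∈ T := by
    intro a b ha hb m n p
    rw [← add_assoc, zperiod hb, zperiod ha]
  obtain ⟨x, hx⟩ := hne
  have key : ∀ {θ : ℝ}, Irrational θ → (∀ p, p + (θ, (0:ℝ)) ∈ T ↔ p ∈ T) → False := by
    intro θ hθ hper
    exact no_irr hfin h1 hθ (x := x) (fun n => (zperiod hper n x).2 hx)
  have hA := split hfin h1 (u := ((169 / 196 : ℝ), g)) (v := (g * t, g)) (w := w) hg rfl
    (by
      have : Irrational (((169/196 : ℚ) : ℝ) - g * t) := hirr.ratCast_sub _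
      simpa using this) hw0 hw ha
  have hB := split hfin h1 (u := ((0 : ℝ), g)) (v := (g * t - (-194 / 225), g)) (w := w) hg rfl
    (by
      have : Irrational (((-194/225 : ℚ) : ℝ) - g * t) := hirr.ratCast_sub _
      have e : (((0:ℝ), g).1 - (g * t - (-194 / 225), g).1) = (((-194/225 : ℚ) : ℝ) - g * t) := by
        push_cast; ring
      rw [e]; exact this) hw0 hw hb
  rcases hA with hA | hA <;> rcases hB with hB | hB
  · left
    refine ⟨?_, hB⟩
    intro p
    -- 169/196 and 1 generate 1/196 : 29 * 169 = 4901 = 25 * 196 + 1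
    have h2 := add_per hA hB 1 (-1)
    have h3 := add_per h2 h1 1 0
    have h4 : ∀ p, p + ((169 / 196 : ℝ), (0:ℝ)) ∈ T ↔ p ∈ T := by
      intro p
      have := h2 p
      have e : ((1:ℤ) • ((169 / 196 : ℝ), g) + (-1:ℤ) • ((0:ℝ), g)) = ((169 / 196 : ℝ), (0:ℝ)) := by
        ext <;> simp
      rwa [e] at this
    have h5 := add_per h4 h1 29 (-25) p
    have e : ((29:ℤ) • ((169 / 196 : ℝ), (0:ℝ)) + (-25:ℤ) • ((1:ℝ), (0:ℝ)))
        = ((1 / 196 : ℝ), (0:ℝ)) := by
      ext <;> simp <;> norm_num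
    rwa [e] at h5
  · exfalso
    have h2 := add_per hA hB 1 (-1)
    refine key (θ := ((169/196 - 194/225 : ℚ) : ℝ) - g * t) (hirr.ratCast_sub _) ?_
    intro p
    have := h2 p
    have e : ((1:ℤ) • ((169 / 196 : ℝ), g) + (-1:ℤ) • (g * t - (-194 / 225), g))
        = ((((169/196 - 194/225 : ℚ) : ℝ) - g * t), (0:ℝ)) := by
      ext
      · simp; ring
      · simp
    rwa [e] at this
  · exfalso
    have h2 := add_per hA hB 1 (-1)
    refine key (θ := g * t) hirr ?_
    intro p
    have := h2 p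
    have e : ((1:ℤ) • (g * t, g) + (-1:ℤ) • ((0:ℝ), g)) = (g * t, (0:ℝ)) := by
      ext <;> simp
    rwa [e] at this
  · right
    refine ⟨?_, hA⟩
    intro p
    -- -194/225 and 1 generate 1/225 : 29 * (-194) + 25 * 225 * ... 
    have h2 := add_per hA hB 1 (-1)
    have h4 : ∀ p, p + ((-194 / 225 : ℝ), (0:ℝ)) ∈ T ↔ p ∈ T := by
      intro p
      have := h2 p
      have e : ((1:ℤ) • (g * t, g) + (-1:ℤ) • (g * t - (-194 / 225), g))
          = ((-194 / 225 : ℝ), (0:ℝ)) := by
        ext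
        · simp
        · simp
      rwa [e] at this
    -- -194 ≡ 31 mod 225 and 31 * 196 ≡ 1 mod 225
    have h5 := add_per h4 h1 196 169 p
    have e : ((196:ℤ) • ((-194 / 225 : ℝ), (0:ℝ)) + (169:ℤ) • ((1:ℝ), (0:ℝ)))
        = ((1 / 225 : ℝ), (0:ℝ)) := by
      ext <;> simp <;> norm_num
    rwa [e] at h5

end Vale.Agent.P043.R2.H888
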